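import Vale.Agent.Helper3.CertificateWidth

/-!
# P063 (Friedgut-Kalai threshold-width conjecture): width and the size of minimal members

Let `E` be a finite set of coordinates (for a hypergraph property: the `r`-subsets of the vertex
set) and `P` an increasing family of subsets of `E` with `E ∈ P`, such that every member of `P`
contains a member with at most `M ≥ 1` elements.  With

  `μ(p) = ∑_{H ∈ P} p^|H| (1 - p)^(|E| - |H|)`,

the probability that the random subset with density `p` lies in `P`: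

1. `μ(p t) ≥ t^M μ(p)` for all `p, t ∈ [0, 1]`;
2. if `0 < ε < 1/2` and `μ(p) < ε` for all `0 ≤ p ≤ q0`, then the threshold width
   `inf {p ∈ [0,1] : μ(p) ≥ 1 - ε} - inf {p ∈ [0,1] : μ(p) ≥ ε}` is at least
   `q0 * log ((1 - ε) / ε) / M`.

No symmetry of `P` is assumed.
-/

namespace Vale.Agent.Results.P063.CertificateWidth

open Classical in
theorem result {E : Type*} [Fintype E] [DecidableEq E] (P : Set (Finset E))
    (hinc : ∀ H H' : Finset E, H ∈ P → H ⊆ H' → H' ∈ P)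
    (hfull : (Finset.univ : Finset E) ∈ P)
    (M : ℕ) (hM0 : 0 < M) (hM : ∀ H ∈ P, ∃ K ∈ P, K ⊆ H ∧ K.card ≤ M) :
    let μ : ℝ → ℝ := fun p =>
      ∑ H : Finset E, if H ∈ P then p ^ H.card * (1 - p) ^ (Fintype.card E - H.card) else 0
    (∀ p t : ℝ, 0 ≤ p → p ≤ 1 → 0 ≤ t → t ≤ 1 → t ^ M * μ p ≤ μ (p * t)) ∧
    (∀ ε q0 : ℝ, 0 < ε → ε < 1 / 2 → 0 < q0 → (∀ p : ℝ, 0 ≤ p → p ≤ q0 → μ p < ε) →
      q0 * (Real.log ((1 - ε) / ε) / M) ≤
        sInf {p : ℝ | 0 ≤ p ∧ p ≤ 1 ∧ 1 - ε ≤ μ p} - sInf {p : ℝ | 0 ≤ p ∧ p ≤ 1 ∧ ε ≤ μ p}) :=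
  Vale.Agent.Helper3.CertificateWidth.certificate_width P hinc hfull M hM0 hM

end Vale.Agent.Results.P063.CertificateWidth
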