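import Vale.Agent.Helper3.CliqueWindowAux

/-!
# P063 (Friedgut-Kalai threshold-width conjecture): the clique property, in plain form

Fix `r ≥ 2` and `0 < ε < 1/2`.  For `m ≤ n` let `μ(p)` be the probability that the random
`r`-uniform hypergraph on `n` vertices, in which each `r`-set is an edge independently with
probability `p`, contains a complete `r`-uniform hypergraph on some `m` vertices:

  `μ(p) = ∑_H p^|H| (1 - p)^(N - |H|)`,

the sum over all sets `H` of `r`-subsets of `Fin n` that contain all `r`-subsets of some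
`m`-set `Q`, where `N` is the number of `r`-subsets of `Fin n`.

There are `c > 0` and `n₀` such that for every `n ≥ n₀` there are `m` with `r ≤ m ≤ n` and
`0 ≤ p₁`, `p₂ ≤ 1` with `p₂ - p₁ ≥ c (log n)^(-r/(r-1))`, `μ(p₁) ≥ ε` and `μ(p) < 1 - ε` for all
`0 ≤ p < p₂`.  So the threshold window of this property has length at least
`c (log n)^(-r/(r-1))`.  This is the content of the hand-in `HypergraphCliqueWidth`, for the
explicit property used there and with all definitions written out.
-/

namespace Vale.Agent.Results.P063.CliqueWindow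

open Classical in
theorem result (r : ℕ) (hr : 2 ≤ r) (ε : ℝ) (hε0 : 0 < ε) (hε1 : ε < 1 / 2) :
    ∃ c : ℝ, 0 < c ∧ ∃ n0 : ℕ, ∀ n : ℕ, n0 ≤ n → ∃ m : ℕ, r ≤ m ∧ m ≤ n ∧
      let μ : ℝ → ℝ := fun p =>
        ∑ H : Finset {e : Finset (Fin n) // e.card = r},
          if (∃ Q : Finset (Fin n), Q.card = m ∧
              ∀ e : {e : Finset (Fin n) // e.card = r}, e.1 ⊆ Q → e ∈ H)
          then p ^ H.card *
            (1 - p) ^ (Fintype.card {e : Finset (Fin n) // e.card = r} - H.card)
          else 0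
      ∃ p1 p2 : ℝ, 0 ≤ p1 ∧ p2 ≤ 1 ∧
        c * Real.log n ^ (-(r : ℝ) / ((r : ℝ) - 1)) ≤ p2 - p1 ∧
        ε ≤ μ p1 ∧ ∀ p : ℝ, 0 ≤ p → p < p2 → μ p < 1 - ε :=
  Vale.Agent.Helper3.CliqueWindowAux.clique_window r hr ε hε0 hε1

end Vale.Agent.Results.P063.CliqueWindow
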