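import Mathlib

/-!
# P063 (Friedgut-Kalai threshold-width conjecture): wide thresholds for hypergraph properties

For every `r ≥ 2` and `0 < ε < 1/2` there are `c > 0` and `n₀` such that for every `n ≥ n₀`
some nontrivial increasing `r`-uniform hypergraph property on `n` vertices has threshold width

  `w_ε(P) ≥ c (log n)^(-r/(r-1))`.

The property is: the hypergraph contains a complete `r`-uniform hypergraph on `m` vertices, with
`m` of order `(log n)^(1/(r-1))`.  The proof is a coupling argument: if every member of an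
increasing family contains a member with at most `M` elements, then thinning by a factor `t`
keeps the family with probability at least `t^M`, so the threshold window has multiplicative
length at least `((1-ε)/ε)^(1/M)`.
-/

set_option linter.unusedSectionVars false

namespace Vale.Agent.Results.P063.HypergraphCliqueWidth

open Finset


section General

variable {E : Type*} [Fintype E] [DecidableEq E]

/-- Probability of the configuration `H` when every element of `E` is present independently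
with probability `p`. -/
noncomputable def wt (p : ℝ) (H : Finset E) : ℝ :=
  p ^ H.card * (1 - p) ^ (Fintype.card E - H.card)

open Classical in
/-- `mu p P`: the probability that the random subset lies in the family `P`. -/
noncomputable def mu (p : ℝ) (P : Set (Finset E)) : ℝ :=
  ∑ H : Finset E, if H ∈ P then wt p H else 0

theorem wt_nonneg {p : ℝ} (hp0 : 0 ≤ p) (hp1 : p ≤ 1) (H : Finset E) : 0 ≤ wt p H :=
  mul_nonneg (pow_nonneg hp0 _) (pow_nonneg (by linarith) _)

/-- Sum over the interval `[K, S]` of finite sets. -/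
theorem sum_Icc_pow (a b : ℝ) {K S : Finset E} (hKS : K ⊆ S) :
    ∑ H ∈ Finset.Icc K S, a ^ H.card * b ^ (S.card - H.card)
      = a ^ K.card * (a + b) ^ (S.card - K.card) := by
  rw [Finset.Icc_eq_image_powerset hKS, Finset.sum_image]
  · have h1 : ∀ J ∈ (S \ K).powerset, a ^ (K ∪ J).card * b ^ (S.card - (K ∪ J).card)
        = a ^ K.card * (a ^ J.card * b ^ ((S \ K).card - J.card)) := by
      intro J hJ
      rw [Finset.mem_powerset] at hJ
      have hdisj : Disjoint K J := by
        rw [Finset.disjoint_left]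
        intro x hxK hxJ
        exact (Finset.mem_sdiff.1 (hJ hxJ)).2 hxK
      rw [Finset.card_union_of_disjoint hdisj, Finset.card_sdiff_of_subset hKS, pow_add]
      have : S.card - (K.card + J.card) = S.card - K.card - J.card := by omega
      rw [this]
      ring
    rw [Finset.sum_congr rfl h1, ← Finset.mul_sum, Finset.sum_pow_mul_eq_add_pow,
      Finset.card_sdiff_of_subset hKS]
  · intro J1 hJ1 J2 hJ2 h
    have hJ1' := Finset.mem_powerset.1 (Finset.mem_coe.1 hJ1)
    have hJ2' := Finset.mem_powerset.1 (Finset.mem_coe.1 hJ2)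
    have e1 : (K ∪ J1) \ K = J1 := by
      rw [Finset.union_sdiff_left]
      exact Finset.sdiff_eq_self_of_disjoint (Finset.disjoint_left.2 fun x hx hxK =>
        (Finset.mem_sdiff.1 (hJ1' hx)).2 hxK)
    have e2 : (K ∪ J2) \ K = J2 := by
      rw [Finset.union_sdiff_left]
      exact Finset.sdiff_eq_self_of_disjoint (Finset.disjoint_left.2 fun x hx hxK =>
        (Finset.mem_sdiff.1 (hJ2' hx)).2 hxK)
    have h' : K ∪ J1 = K ∪ J2 := h
    rw [← e1, ← e2, h']

end General


section General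

variable {E : Type*} [Fintype E] [DecidableEq E]

theorem Icc_univ_eq (K : Finset E) :
    Finset.Icc K (Finset.univ : Finset E) = Finset.univ.filter (fun H => K ⊆ H) := by
  ext H
  simp [Finset.mem_Icc]

/-- The probability that the random subset contains a fixed set `K` is `p ^ |K|`. -/
theorem sum_superset_wt (p : ℝ) (K : Finset E) :
    (∑ H : Finset E, if K ⊆ H then wt p H else 0) = p ^ K.card := by
  rw [← Finset.sum_filter, ← Icc_univ_eq]
  have := sum_Icc_pow p (1 - p) (Finset.subset_univ K)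
  simp only [Finset.card_univ] at this
  unfold wt
  rw [this]
  simp

/-- Two-stage sampling: keep every element with probability `p'`, then thin with probability
`t`. -/
theorem wt_mul (p' t : ℝ) (H : Finset E) :
    wt (p' * t) H = ∑ H' ∈ Finset.Icc H (Finset.univ : Finset E),
      wt p' H' * (t ^ H.card * (1 - t) ^ (H'.card - H.card)) := by
  have hsub := Finset.subset_univ H
  rw [Finset.Icc_eq_image_powerset hsub, Finset.sum_image]
  · have h1 : ∀ J ∈ ((Finset.univ : Finset E) \ H).powerset,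
        wt p' (H ∪ J) * (t ^ H.card * (1 - t) ^ ((H ∪ J).card - H.card))
        = (p' * t) ^ H.card * ((p' * (1 - t)) ^ J.card *
            (1 - p') ^ (((Finset.univ : Finset E) \ H).card - J.card)) := by
      intro J hJ
      rw [Finset.mem_powerset] at hJ
      have hdisj : Disjoint H J := by
        rw [Finset.disjoint_left]
        intro x hxK hxJ
        exact (Finset.mem_sdiff.1 (hJ hxJ)).2 hxK
      have hcard : J.card ≤ ((Finset.univ : Finset E) \ H).card := Finset.card_le_card hJ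
      unfold wt
      rw [Finset.card_union_of_disjoint hdisj, Finset.card_sdiff_of_subset hsub,
        Finset.card_univ]
      rw [Finset.card_sdiff_of_subset hsub, Finset.card_univ] at hcard
      have e1 : H.card + J.card - H.card = J.card := by omega
      have e2 : Fintype.card E - (H.card + J.card) = Fintype.card E - H.card - J.card := by omega
      rw [e1, e2, pow_add, mul_pow, mul_pow]
      ring
    rw [Finset.sum_congr rfl h1, ← Finset.mul_sum, Finset.sum_pow_mul_eq_add_pow,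
      Finset.card_sdiff_of_subset hsub, Finset.card_univ]
    unfold wt
    congr 2
    ring
  · intro J1 hJ1 J2 hJ2 h
    have hJ1' := Finset.mem_powerset.1 (Finset.mem_coe.1 hJ1)
    have hJ2' := Finset.mem_powerset.1 (Finset.mem_coe.1 hJ2)
    have e1 : (H ∪ J1) \ H = J1 := by
      rw [Finset.union_sdiff_left]
      exact Finset.sdiff_eq_self_of_disjoint (Finset.disjoint_left.2 fun x hx hxK =>
        (Finset.mem_sdiff.1 (hJ1' hx)).2 hxK)
    have e2 : (H ∪ J2) \ H = J2 := by
      rw [Finset.union_sdiff_left]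
      exact Finset.sdiff_eq_self_of_disjoint (Finset.disjoint_left.2 fun x hx hxK =>
        (Finset.mem_sdiff.1 (hJ2' hx)).2 hxK)
    have h' : H ∪ J1 = H ∪ J2 := h
    rw [← e1, ← e2, h']

end General


section General

variable {E : Type*} [Fintype E] [DecidableEq E]

/-- Coupling inequality: if every member of the increasing family `P` contains a member with at
most `M` elements, then thinning by `t` keeps the family with probability at least `t ^ M`. -/
theorem mu_mul_ge {P : Set (Finset E)} (hinc : ∀ H H' : Finset E, H ∈ P → H ⊆ H' → H' ∈ P)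
    {M : ℕ} (hM : ∀ H ∈ P, ∃ K ∈ P, K ⊆ H ∧ K.card ≤ M) {p' t : ℝ} (hp0 : 0 ≤ p')
    (hp1 : p' ≤ 1) (ht0 : 0 ≤ t) (ht1 : t ≤ 1) : t ^ M * mu p' P ≤ mu (p' * t) P := by
  classical
  have hg : ∀ H H' : Finset E, 0 ≤ wt p' H' * (t ^ H.card * (1 - t) ^ (H'.card - H.card)) :=
    fun H H' => mul_nonneg (wt_nonneg hp0 hp1 H')
      (mul_nonneg (pow_nonneg ht0 _) (pow_nonneg (by linarith) _))
  have h1 : mu (p' * t) P = ∑ H : Finset E, ∑ H' : Finset E,
      if H ∈ P ∧ H ⊆ H' then wt p' H' * (t ^ H.card * (1 - t) ^ (H'.card - H.card)) else 0 := by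
    unfold mu
    refine Finset.sum_congr rfl fun H _ => ?_
    by_cases hH : H ∈ P
    · rw [if_pos hH, wt_mul, Icc_univ_eq, Finset.sum_filter]
      refine Finset.sum_congr rfl fun H' _ => ?_
      by_cases hsub : H ⊆ H'
      · rw [if_pos hsub, if_pos ⟨hH, hsub⟩]
      · rw [if_neg hsub, if_neg (fun h => hsub h.2)]
    · rw [if_neg hH]
      symm
      apply Finset.sum_eq_zero
      intro H' _
      rw [if_neg (fun h => hH h.1)]
  rw [h1, Finset.sum_comm]
  unfold mu
  rw [Finset.mul_sum]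
  refine Finset.sum_le_sum fun H' _ => ?_
  by_cases hH' : H' ∈ P
  · rw [if_pos hH']
    obtain ⟨K, hKP, hKH, hKM⟩ := hM H' hH'
    have h2 : ∑ H ∈ Finset.Icc K H',
        wt p' H' * (t ^ H.card * (1 - t) ^ (H'.card - H.card)) = wt p' H' * t ^ K.card := by
      rw [← Finset.mul_sum, sum_Icc_pow t (1 - t) hKH]
      simp
    have h3 : ∑ H ∈ Finset.Icc K H',
        wt p' H' * (t ^ H.card * (1 - t) ^ (H'.card - H.card))
        = ∑ H ∈ Finset.Icc K H',
          if H ∈ P ∧ H ⊆ H' then wt p' H' * (t ^ H.card * (1 - t) ^ (H'.card - H.card))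
          else 0 := by
      refine Finset.sum_congr rfl fun H hH => ?_
      rw [Finset.mem_Icc] at hH
      rw [if_pos ⟨hinc K H hKP hH.1, hH.2⟩]
    have h4 : ∑ H ∈ Finset.Icc K H',
          (if H ∈ P ∧ H ⊆ H' then wt p' H' * (t ^ H.card * (1 - t) ^ (H'.card - H.card))
          else 0)
        ≤ ∑ H : Finset E,
          if H ∈ P ∧ H ⊆ H' then wt p' H' * (t ^ H.card * (1 - t) ^ (H'.card - H.card))
          else 0 := by
      apply Finset.sum_le_sum_of_subset_of_nonneg (Finset.subset_univ _)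
      intro H _ _
      split_ifs
      · exact hg H H'
      · exact le_rfl
    have h5 : t ^ M * wt p' H' ≤ wt p' H' * t ^ K.card := by
      rw [mul_comm]
      exact mul_le_mul_of_nonneg_left (pow_le_pow_of_le_one ht0 ht1 hKM) (wt_nonneg hp0 hp1 H')
    calc t ^ M * wt p' H' ≤ wt p' H' * t ^ K.card := h5
      _ = _ := h2.symm
      _ = _ := h3
      _ ≤ _ := h4
  · rw [if_neg hH', mul_zero]
    apply Finset.sum_nonneg
    intro H _
    split_ifs
    · exact hg H H'
    · exact le_rfl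

/-- Union-type bound: if every member of `P` contains one of the sets `K i`, each with at least
`M` elements, then `mu p P ≤ (number of i) * p ^ M` for `0 ≤ p ≤ 1`. -/
theorem mu_le_card_mul_pow {ι : Type*} [Fintype ι] {P : Set (Finset E)} (K : ι → Finset E)
    {M : ℕ} (hK : ∀ i, M ≤ (K i).card) (hP : ∀ H ∈ P, ∃ i, K i ⊆ H) {p : ℝ} (hp0 : 0 ≤ p)
    (hp1 : p ≤ 1) : mu p P ≤ (Fintype.card ι : ℝ) * p ^ M := by
  classical
  have h1 : mu p P ≤ ∑ H : Finset E, ∑ i : ι, if K i ⊆ H then wt p H else 0 := by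
    unfold mu
    refine Finset.sum_le_sum fun H _ => ?_
    by_cases hH : H ∈ P
    · rw [if_pos hH]
      obtain ⟨i, hi⟩ := hP H hH
      have : (if K i ⊆ H then wt p H else 0) ≤ ∑ i : ι, if K i ⊆ H then wt p H else 0 := by
        apply Finset.single_le_sum (f := fun i => if K i ⊆ H then wt p H else 0)
        · intro j _
          show 0 ≤ if K j ⊆ H then wt p H else 0
          split_ifs
          · exact wt_nonneg hp0 hp1 H
          · exact le_rfl
        · exact Finset.mem_univ i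
      rwa [if_pos hi] at this
    · rw [if_neg hH]
      apply Finset.sum_nonneg
      intro j _
      split_ifs
      · exact wt_nonneg hp0 hp1 H
      · exact le_rfl
  rw [Finset.sum_comm] at h1
  refine h1.trans ?_
  have h2 : ∀ i : ι, (∑ H : Finset E, if K i ⊆ H then wt p H else 0) ≤ p ^ M := by
    intro i
    rw [sum_superset_wt]
    exact pow_le_pow_of_le_one hp0 hp1 (hK i)
  calc ∑ i : ι, ∑ H : Finset E, (if K i ⊆ H then wt p H else 0) ≤ ∑ i : ι, p ^ M :=
        Finset.sum_le_sum fun i _ => h2 i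
    _ = (Fintype.card ι : ℝ) * p ^ M := by
        rw [Finset.sum_const, Finset.card_univ, nsmul_eq_mul]

end General


section General

variable {E : Type*} [Fintype E] [DecidableEq E]

/-- The `a`-threshold `p_a(P) = inf {p ∈ [0,1] : mu p P ≥ a}`. -/
noncomputable def pThr (a : ℝ) (P : Set (Finset E)) : ℝ :=
  sInf {p : ℝ | 0 ≤ p ∧ p ≤ 1 ∧ a ≤ mu p P}

/-- The threshold width `w_ε(P) = p_{1-ε}(P) - p_ε(P)`. -/
noncomputable def width (ε : ℝ) (P : Set (Finset E)) : ℝ :=
  pThr (1 - ε) P - pThr ε P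

theorem continuous_mu (P : Set (Finset E)) : Continuous fun p : ℝ => mu p P := by
  classical
  unfold mu
  refine continuous_finsetSum _ fun H _ => ?_
  by_cases hH : H ∈ P
  · simp only [if_pos hH]
    unfold wt
    fun_prop
  · simp only [if_neg hH]
    exact continuous_const

theorem mu_one {P : Set (Finset E)} (hfull : (Finset.univ : Finset E) ∈ P) : mu 1 P = 1 := by
  classical
  unfold mu
  rw [Finset.sum_eq_single (Finset.univ : Finset E)]
  · rw [if_pos hfull]
    simp [wt]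
  · intro H _ hH
    by_cases hHP : H ∈ P
    · rw [if_pos hHP]
      have hlt : H.card < Fintype.card E := by
        rcases lt_or_eq_of_le (Finset.card_le_univ H) with h | h
        · exact h
        · exact absurd (Finset.eq_univ_of_card H h) hH
      have : Fintype.card E - H.card ≠ 0 := by omega
      simp [wt, this]
    · rw [if_neg hHP]
  · intro h
    exact absurd (Finset.mem_univ _) h

/-- General lower bound for the threshold width of an increasing family whose members all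
contain a member with at most `M` elements. -/
theorem width_ge {P : Set (Finset E)} (hinc : ∀ H H' : Finset E, H ∈ P → H ⊆ H' → H' ∈ P)
    {M : ℕ} (hM0 : 0 < M) (hM : ∀ H ∈ P, ∃ K ∈ P, K ⊆ H ∧ K.card ≤ M)
    (hfull : (Finset.univ : Finset E) ∈ P) {ε : ℝ} (hε0 : 0 < ε) (hε1 : ε < 1 / 2)
    {q0 : ℝ} (hq0 : 0 < q0) (hlow : ∀ p : ℝ, 0 ≤ p → p ≤ q0 → mu p P < ε) :
    q0 * (Real.log ((1 - ε) / ε) / M) ≤ width ε P := by
  set S1 : Set ℝ := {p : ℝ | 0 ≤ p ∧ p ≤ 1 ∧ 1 - ε ≤ mu p P} with hS1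
  set S0 : Set ℝ := {p : ℝ | 0 ≤ p ∧ p ≤ 1 ∧ ε ≤ mu p P} with hS0
  have hcont := continuous_mu P
  have h1mem : (1 : ℝ) ∈ S1 := ⟨zero_le_one, le_rfl, by rw [mu_one hfull]; linarith⟩
  have hS1closed : IsClosed S1 := by
    have : S1 = Set.Icc 0 1 ∩ (fun p : ℝ => mu p P) ⁻¹' Set.Ici (1 - ε) := by
      ext p
      simp only [hS1, Set.mem_ofPred_eq, Set.mem_inter_iff, Set.mem_Icc, Set.mem_preimage,
        Set.mem_Ici]
      tauto
    rw [this]
    exact isClosed_Icc.inter (isClosed_Ici.preimage hcont)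
  have hS1bdd : BddBelow S1 := ⟨0, fun p hp => hp.1⟩
  have hS0bdd : BddBelow S0 := ⟨0, fun p hp => hp.1⟩
  have hq'mem : sInf S1 ∈ S1 := hS1closed.csInf_mem ⟨1, h1mem⟩ hS1bdd
  set q' := sInf S1 with hq'
  set q := sInf S0 with hq
  obtain ⟨hq'0, hq'1, hq'mu⟩ := hq'mem
  have hsub : S1 ⊆ S0 := fun p hp => ⟨hp.1, hp.2.1, by linarith [hp.2.2]⟩
  have hS0ne : S0.Nonempty := ⟨1, hsub h1mem⟩
  have hqq' : q ≤ q' := csInf_le hS0bdd (hsub ⟨hq'0, hq'1, hq'mu⟩)
  have hq0q : q0 ≤ q := by
    apply le_csInf hS0ne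
    intro p hp
    by_contra hcon
    push Not at hcon
    exact absurd hp.2.2 (not_le.2 (hlow p hp.1 hcon.le))
  have hbelow : ∀ p : ℝ, 0 ≤ p → p < q → mu p P < ε := by
    intro p hp0 hpq
    by_contra hcon
    push Not at hcon
    have : p ∈ S0 := ⟨hp0, by linarith, hcon⟩
    exact absurd (csInf_le hS0bdd this) (not_le.2 hpq)
  have hratio : 1 < (1 - ε) / ε := by
    rw [one_lt_div hε0]; linarith
  set L := Real.log ((1 - ε) / ε) with hL
  have hLpos : 0 < L := Real.log_pos hratio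
  have hMpos : (0 : ℝ) < M := by exact_mod_cast hM0
  set c := Real.exp (L / M) with hc
  have hc1 : 1 ≤ c := by
    rw [hc]
    exact Real.one_le_exp (div_nonneg hLpos.le hMpos.le)
  have hcpos : 0 < c := Real.exp_pos _
  have hcM : c ^ M = (1 - ε) / ε := by
    rw [hc, ← Real.exp_nat_mul, mul_div_cancel₀ _ hMpos.ne', hL, Real.exp_log (by linarith)]
  have hq'pos : 0 < q' := lt_of_lt_of_le hq0 (hq0q.trans hqq')
  -- key claim
  have hkey : q * c ≤ q' := by
    by_contra hcon
    push Not at hcon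
    set p := q' / c with hp
    have hppos : 0 < p := div_pos hq'pos hcpos
    have hpq : p < q := by
      rw [hp, div_lt_iff₀ hcpos]; exact hcon
    have hmu := hbelow p hppos.le hpq
    have ht0 : (0 : ℝ) ≤ 1 / c := by positivity
    have ht1 : 1 / c ≤ 1 := by
      rw [div_le_one hcpos]; exact hc1
    have hcoup := mu_mul_ge hinc hM hq'0 hq'1 ht0 ht1
    have e1 : q' * (1 / c) = p := by rw [hp]; ring
    rw [e1] at hcoup
    have e2 : (1 / c) ^ M = ε / (1 - ε) := by
      rw [one_div, inv_pow, hcM, inv_div]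
    rw [e2] at hcoup
    have h1ε : 0 < 1 - ε := by linarith
    have : ε ≤ ε / (1 - ε) * mu q' P := by
      calc ε = ε / (1 - ε) * (1 - ε) := by field_simp
        _ ≤ ε / (1 - ε) * mu q' P :=
          mul_le_mul_of_nonneg_left hq'mu (div_nonneg hε0.le h1ε.le)
    linarith
  have hc2 : 1 + L / M ≤ c := by
    rw [hc]
    linarith [Real.add_one_le_exp (L / M)]
  have hqpos : 0 < q := lt_of_lt_of_le hq0 hq0q
  have hfinal : q0 * (L / M) ≤ q' - q := by
    have h1 : q * (L / M) ≤ q * (c - 1) :=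
      mul_le_mul_of_nonneg_left (by linarith) hqpos.le
    have h2 : q0 * (L / M) ≤ q * (L / M) :=
      mul_le_mul_of_nonneg_right hq0q (div_nonneg hLpos.le hMpos.le)
    nlinarith
  exact hfinal

end General


/-- The ground set `E_{n,r}`: the `r`-element subsets of `Fin n`. -/
abbrev Edge (n r : ℕ) : Type := {s : Finset (Fin n) // s.card = r}

/-- The action of a permutation of the vertex set on `r`-sets. -/
def permEdge {n r : ℕ} (σ : Equiv.Perm (Fin n)) (e : Edge n r) : Edge n r :=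
  ⟨e.1.map σ.toEmbedding, by rw [Finset.card_map]; exact e.2⟩

/-- A family of `r`-uniform hypergraphs on `Fin n` is a hypergraph property if it is invariant
under all permutations of the vertex set. -/
def IsSymmetric {n r : ℕ} (P : Set (Finset (Edge n r))) : Prop :=
  ∀ (σ : Equiv.Perm (Fin n)) (H : Finset (Edge n r)), H ∈ P → H.image (permEdge σ) ∈ P

/-- Increasing: adding edges preserves membership. -/
def IsIncreasing {n r : ℕ} (P : Set (Finset (Edge n r))) : Prop :=
  ∀ H H' : Finset (Edge n r), H ∈ P → H ⊆ H' → H' ∈ P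

/-- Nontrivial: neither empty nor everything. -/
def IsNontrivial {n r : ℕ} (P : Set (Finset (Edge n r))) : Prop :=
  (∃ H, H ∈ P) ∧ (∃ H, H ∉ P)

/-- The property of containing a complete `r`-uniform hypergraph on some `m` vertices. -/
def cliqueProp (n r m : ℕ) : Set (Finset (Edge n r)) :=
  {H | ∃ Q : Finset (Fin n), Q.card = m ∧ ∀ e : Edge n r, e.1 ⊆ Q → e ∈ H}

/-- The edge set of the complete `r`-uniform hypergraph on the vertex set `Q`. -/
def cl {n : ℕ} (r : ℕ) (Q : Finset (Fin n)) : Finset (Edge n r) :=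
  Finset.univ.filter (fun e => e.1 ⊆ Q)

theorem card_cl {n : ℕ} (r : ℕ) (Q : Finset (Fin n)) : (cl r Q).card = Q.card.choose r := by
  rw [← Finset.card_powersetCard r Q]
  apply Finset.card_bij (fun e _ => e.1)
  · intro e he
    rw [Finset.mem_powersetCard]
    exact ⟨(Finset.mem_filter.1 he).2, e.2⟩
  · intro e1 _ e2 _ h
    exact Subtype.ext h
  · intro s hs
    rw [Finset.mem_powersetCard] at hs
    exact ⟨⟨s, hs.2⟩, Finset.mem_filter.2 ⟨Finset.mem_univ _, hs.1⟩, rfl⟩

theorem cliqueProp_increasing (n r m : ℕ) : IsIncreasing (cliqueProp n r m) := by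
  rintro H H' ⟨Q, hQ, hQH⟩ hsub
  exact ⟨Q, hQ, fun e he => hsub (hQH e he)⟩

theorem cliqueProp_symmetric (n r m : ℕ) : IsSymmetric (cliqueProp n r m) := by
  rintro σ H ⟨Q, hQ, hQH⟩
  refine ⟨Q.map σ.toEmbedding, by rw [Finset.card_map]; exact hQ, fun e he => ?_⟩
  rw [Finset.mem_image]
  refine ⟨permEdge σ⁻¹ e, hQH _ ?_, ?_⟩
  · intro x hx
    simp only [permEdge, Finset.mem_map, Equiv.coe_toEmbedding] at hx
    obtain ⟨y, hy, rfl⟩ := hx
    have := he hy
    simp only [Finset.mem_map, Equiv.coe_toEmbedding] at this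
    obtain ⟨z, hz, hzy⟩ := this
    have : σ⁻¹ y = z := by
      rw [← hzy]; simp
    rw [this]; exact hz
  · apply Subtype.ext
    ext x
    simp only [permEdge, Finset.mem_map, Equiv.coe_toEmbedding]
    constructor
    · rintro ⟨y, ⟨z, hz, rfl⟩, rfl⟩
      simpa using hz
    · intro hx
      exact ⟨σ⁻¹ x, ⟨x, hx, rfl⟩, by simp⟩

theorem univ_mem_cliqueProp {n r m : ℕ} (hmn : m ≤ n) :
    (Finset.univ : Finset (Edge n r)) ∈ cliqueProp n r m := by
  obtain ⟨Q, _, hQ⟩ := Finset.exists_subset_card_eq (s := (Finset.univ : Finset (Fin n)))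
    (n := m) (by simpa using hmn)
  exact ⟨Q, hQ, fun e _ => Finset.mem_univ e⟩

theorem empty_notMem_cliqueProp {n r m : ℕ} (hrm : r ≤ m) :
    (∅ : Finset (Edge n r)) ∉ cliqueProp n r m := by
  rintro ⟨Q, hQ, hQH⟩
  obtain ⟨s, hs, hsc⟩ := Finset.exists_subset_card_eq (s := Q) (n := r) (by rw [hQ]; exact hrm)
  exact absurd (hQH ⟨s, hsc⟩ hs) (Finset.notMem_empty _)

theorem cliqueProp_nontrivial {n r m : ℕ} (hrm : r ≤ m) (hmn : m ≤ n) :
    IsNontrivial (cliqueProp n r m) :=
  ⟨⟨_, univ_mem_cliqueProp hmn⟩, ⟨_, empty_notMem_cliqueProp hrm⟩⟩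

/-- Every hypergraph with the clique property contains a clique, which has `C(m,r)` edges. -/
theorem cliqueProp_minterm (n r m : ℕ) :
    ∀ H ∈ cliqueProp n r m, ∃ K ∈ cliqueProp n r m, K ⊆ H ∧ K.card ≤ m.choose r := by
  rintro H ⟨Q, hQ, hQH⟩
  refine ⟨cl r Q, ⟨Q, hQ, fun e he => Finset.mem_filter.2 ⟨Finset.mem_univ _, he⟩⟩, ?_, ?_⟩
  · intro e he
    exact hQH e (Finset.mem_filter.1 he).2
  · rw [card_cl, hQ]

/-- First-moment bound for the clique property. -/
theorem mu_cliqueProp_le (n r m : ℕ) {p : ℝ} (hp0 : 0 ≤ p) (hp1 : p ≤ 1) :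
    mu p (cliqueProp n r m) ≤ (n.choose m : ℝ) * p ^ (m.choose r) := by
  have h := mu_le_card_mul_pow (P := cliqueProp n r m)
    (fun Q : {Q : Finset (Fin n) // Q.card = m} => cl r Q.1) (M := m.choose r)
    (fun Q => by rw [card_cl, Q.2])
    (by
      rintro H ⟨Q, hQ, hQH⟩
      exact ⟨⟨Q, hQ⟩, fun e he => hQH e (Finset.mem_filter.1 he).2⟩) hp0 hp1
  rwa [Fintype.card_finset_len, Fintype.card_fin] at h

/-- Explicit width bound for the clique property. -/
theorem clique_width {n r m : ℕ} (hrm : r ≤ m) (hmn : m ≤ n) {ε : ℝ} (hε0 : 0 < ε)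
    (hε1 : ε < 1 / 2) (hcount : (n.choose m : ℝ) < ε * 2 ^ (m.choose r)) :
    Real.log ((1 - ε) / ε) / (2 * (m.choose r : ℝ)) ≤ width ε (cliqueProp n r m) := by
  have hM0 : 0 < m.choose r := Nat.choose_pos hrm
  have hlow : ∀ p : ℝ, 0 ≤ p → p ≤ 1 / 2 → mu p (cliqueProp n r m) < ε := by
    intro p hp0 hp12
    have h1 := mu_cliqueProp_le n r m hp0 (by linarith : p ≤ 1)
    have h2 : p ^ (m.choose r) ≤ (1 / 2 : ℝ) ^ (m.choose r) := pow_le_pow_left₀ hp0 hp12 _
    have h3 : (n.choose m : ℝ) * (1 / 2 : ℝ) ^ (m.choose r) < ε := by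
      rw [one_div, inv_pow, ← div_eq_mul_inv, div_lt_iff₀ (by positivity)]
      exact hcount
    calc mu p (cliqueProp n r m) ≤ (n.choose m : ℝ) * p ^ (m.choose r) := h1
      _ ≤ (n.choose m : ℝ) * (1 / 2 : ℝ) ^ (m.choose r) :=
        mul_le_mul_of_nonneg_left h2 (Nat.cast_nonneg _)
      _ < ε := h3
  have h := width_ge (cliqueProp_increasing n r m) hM0 (cliqueProp_minterm n r m)
    (univ_mem_cliqueProp hmn) hε0 hε1 (by norm_num : (0 : ℝ) < 1 / 2) hlow
  have e : (1 / 2 : ℝ) * (Real.log ((1 - ε) / ε) / (m.choose r : ℝ))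
      = Real.log ((1 - ε) / ε) / (2 * (m.choose r : ℝ)) := by
    rw [div_mul_eq_div_mul_one_div]
    ring
  rw [← e]
  exact h


theorem exists_T (D B r : ℕ) : ∃ T : ℕ, D * (T + B) + r ≤ 2 ^ T := by
  set u := 2 * D + B + r + 1 with hu
  refine ⟨2 * u, ?_⟩
  have h1 : u < 2 ^ u := Nat.lt_two_pow_self
  have h2 : u * u ≤ 2 ^ u * 2 ^ u := Nat.mul_le_mul h1.le h1.le
  have h3 : 2 ^ (2 * u) = 2 ^ u * 2 ^ u := by rw [two_mul, pow_add]
  rw [h3]
  refine le_trans ?_ h2
  have hDu : D ≤ u := by omega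
  have e : u * u = 2 * D * u + B * u + r * u + u := by
    conv_lhs => rw [hu]
    ring
  have hBu : B * D ≤ B * u := Nat.mul_le_mul_left B hDu
  have hru : r ≤ r * u + u := by nlinarith
  nlinarith

theorem lin_le_two_pow (D B r T : ℕ) (hT : D * (T + B) + r ≤ 2 ^ T) (hB : 1 ≤ B) :
    ∀ k, T ≤ k → D * (k + B) + r ≤ 2 ^ k := by
  intro k hk
  induction k, hk using Nat.le_induction with
  | base => exact hT
  | succ k hk ih =>
    have hD : D ≤ 2 ^ k := by
      have : D ≤ D * (k + B) + r := by nlinarith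
      exact this.trans ih
    calc D * (k + 1 + B) + r = D * (k + B) + r + D := by ring
      _ ≤ 2 ^ k + 2 ^ k := Nat.add_le_add ih hD
      _ = 2 ^ (k + 1) := by ring

theorem pow_le_factorial_mul_choose (s r : ℕ) : (s + 1) ^ r ≤ r.factorial * (s + r).choose r := by
  have h := Nat.pow_sub_le_descFactorial (s + r) r
  rw [Nat.descFactorial_eq_factorial_mul_choose] at h
  have e : s + r + 1 - r = s + 1 := by omega
  rwa [e] at h

theorem choose_ge_lin {s r L Le : ℕ} (hr : 2 ≤ r) (hs : 1 ≤ s)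
    (hA : (r + 1).factorial * (L + Le) ≤ s ^ (r - 1)) :
    L * (s + r) + Le ≤ (s + r).choose r := by
  have h1 := pow_le_factorial_mul_choose s r
  have h2 : s ^ r ≤ (s + 1) ^ r := Nat.pow_le_pow_left (by omega) _
  have h3 : s ^ r = s * s ^ (r - 1) := by
    conv_lhs => rw [show r = (r - 1) + 1 by omega]
    rw [pow_succ']
  have h4 : s * ((r + 1).factorial * (L + Le)) ≤ s * s ^ (r - 1) := Nat.mul_le_mul_left s hA
  have h5 : (r + 1).factorial = (r + 1) * r.factorial := Nat.factorial_succ r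
  have h6 : r.factorial * (s * (r + 1) * (L + Le)) ≤ r.factorial * (s + r).choose r := by
    calc r.factorial * (s * (r + 1) * (L + Le)) = s * ((r + 1).factorial * (L + Le)) := by
          rw [h5]; ring
      _ ≤ s * s ^ (r - 1) := h4
      _ = s ^ r := h3.symm
      _ ≤ (s + 1) ^ r := h2
      _ ≤ _ := h1
  have h7 : s * (r + 1) * (L + Le) ≤ (s + r).choose r :=
    Nat.le_of_mul_le_mul_left h6 (Nat.factorial_pos r)
  have h8 : s + r ≤ s * (r + 1) := by nlinarith
  have h9 : (s + r) * (L + Le) ≤ s * (r + 1) * (L + Le) := Nat.mul_le_mul_right _ h8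
  have h10 : L * (s + r) + Le ≤ (s + r) * (L + Le) := by nlinarith
  omega

theorem count_lt {n m L Le M : ℕ} {ε : ℝ} (hε0 : 0 < ε) (hn : n < 2 ^ L)
    (hM : L * m + Le ≤ M) (hLe : 1 / ε < (2 : ℝ) ^ Le) :
    (n.choose m : ℝ) < ε * 2 ^ M := by
  have h1 : (n.choose m : ℝ) ≤ (2 : ℝ) ^ (L * m) := by
    have : n.choose m ≤ 2 ^ (L * m) := by
      calc n.choose m ≤ n ^ m := Nat.choose_le_pow n m
        _ ≤ (2 ^ L) ^ m := Nat.pow_le_pow_left hn.le m
        _ = 2 ^ (L * m) := by rw [pow_mul]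
    exact_mod_cast this
  have h2 : (2 : ℝ) ^ (L * m) * 2 ^ Le ≤ 2 ^ M := by
    rw [← pow_add]
    exact pow_le_pow_right₀ (by norm_num) hM
  have h3 : 1 < ε * (2 : ℝ) ^ Le := by
    rw [div_lt_iff₀ hε0] at hLe
    linarith
  have h4 : (0 : ℝ) < 2 ^ (L * m) := by positivity
  calc (n.choose m : ℝ) ≤ (2 : ℝ) ^ (L * m) := h1
    _ < (2 : ℝ) ^ (L * m) * (ε * (2 : ℝ) ^ Le) := by nlinarith
    _ = ε * ((2 : ℝ) ^ (L * m) * 2 ^ Le) := by ring
    _ ≤ ε * 2 ^ M := mul_le_mul_of_nonneg_left h2 hε0.le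


/-- `Nat.log 2 n ≤ 2 log n` and `1 ≤ 2 log n` for `n ≥ 2`. -/
theorem natLog_le {n : ℕ} (hn : 2 ≤ n) :
    (Nat.log 2 n : ℝ) ≤ 2 * Real.log n ∧ 1 ≤ 2 * Real.log n := by
  have hlog2 : (1 : ℝ) / 2 < Real.log 2 := by
    have := Real.log_two_gt_d9
    linarith
  have hn' : (2 : ℝ) ≤ n := by exact_mod_cast hn
  have h1 : Real.log 2 ≤ Real.log n := Real.log_le_log (by norm_num) hn'
  refine ⟨?_, by linarith⟩
  have h2 : (2 : ℝ) ^ Nat.log 2 n ≤ n := by
    have := Nat.pow_log_le_self 2 (show n ≠ 0 by omega)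
    exact_mod_cast this
  have h3 : Real.log ((2 : ℝ) ^ Nat.log 2 n) ≤ Real.log n :=
    Real.log_le_log (by positivity) h2
  rw [Real.log_pow] at h3
  have h4 : (0 : ℝ) ≤ Nat.log 2 n := Nat.cast_nonneg _
  nlinarith

theorem pow_eq_rpow_pow (x : ℝ) (hx : 0 ≤ x) {r : ℕ} (hr : 2 ≤ r) :
    x ^ r = (x ^ (r - 1)) ^ ((r : ℝ) / ((r : ℝ) - 1)) := by
  have hr1 : (0 : ℝ) < (r : ℝ) - 1 := by
    have : (2 : ℝ) ≤ r := by exact_mod_cast hr
    linarith
  rw [← Real.rpow_natCast x (r - 1), ← Real.rpow_mul hx]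
  have : ((r - 1 : ℕ) : ℝ) * ((r : ℝ) / ((r : ℝ) - 1)) = r := by
    rw [Nat.cast_sub (by omega), Nat.cast_one]
    field_simp
  rw [this, Real.rpow_natCast]


theorem asymptotic (r : ℕ) (hr : 2 ≤ r) (ε : ℝ) (hε0 : 0 < ε) (hε1 : ε < 1 / 2) :
    ∃ c : ℝ, 0 < c ∧ ∃ n0 : ℕ, ∀ n : ℕ, n0 ≤ n → ∃ P : Set (Finset (Edge n r)),
      IsSymmetric P ∧ IsIncreasing P ∧ IsNontrivial P ∧
      c * Real.log n ^ (-(r : ℝ) / ((r : ℝ) - 1)) ≤ width ε P := by
  obtain ⟨Le, hLe⟩ := pow_unbounded_of_one_lt (1 / ε) (by norm_num : (1 : ℝ) < 2)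
  set F := (r + 1).factorial with hF
  set D := 2 ^ (r - 1) * F with hD
  obtain ⟨T, hT⟩ := exists_T D (1 + Le) r
  set ρ : ℝ := (r : ℝ) / ((r : ℝ) - 1) with hρ
  have hr1 : (0 : ℝ) < (r : ℝ) - 1 := by
    have : (2 : ℝ) ≤ r := by exact_mod_cast hr
    linarith
  have hρpos : 0 < ρ := div_pos (by linarith) hr1
  set C1 : ℝ := (D : ℝ) * (4 + 2 * Le) with hC1
  have hFpos : 0 < F := Nat.factorial_pos _
  have hDpos : 0 < D := by positivity
  have hC1pos : 0 < C1 := by positivity
  set lam := Real.log ((1 - ε) / ε) with hlam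
  have hlampos : 0 < lam := Real.log_pos (by rw [one_lt_div hε0]; linarith)
  have hden : 0 < 2 * (((r : ℝ) + 1) ^ r * C1 ^ ρ) := by positivity
  refine ⟨lam / (2 * (((r : ℝ) + 1) ^ r * C1 ^ ρ)), div_pos hlampos hden, max (2 ^ T) 2, ?_⟩
  intro n hn
  have hn2 : 2 ≤ n := le_trans (le_max_right _ _) hn
  have hnT : 2 ^ T ≤ n := le_trans (le_max_left _ _) hn
  set k := Nat.log 2 n with hk
  have hkT : T ≤ k := by
    have := Nat.log_mono_right (b := 2) hnT
    rwa [Nat.log_pow (by norm_num)] at this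
  have h2k : 2 ^ k ≤ n := Nat.pow_log_le_self 2 (by omega)
  have hnlt : n < 2 ^ (k + 1) := Nat.lt_pow_succ_log_self (by norm_num) n
  set A := F * (k + 1 + Le) with hA
  have hApos : 1 ≤ A := Nat.one_le_iff_ne_zero.2 (by positivity)
  have hex : ∃ s, 1 ≤ s ∧ A ≤ s ^ (r - 1) := ⟨A, hApos, Nat.le_self_pow (by omega) A⟩
  classical
  obtain ⟨hs1, hsA⟩ := Nat.find_spec hex
  set s := Nat.find hex with hs
  have hsup : s ^ (r - 1) ≤ 2 ^ (r - 1) * A := by
    rcases Nat.lt_or_ge s 2 with h | h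
    · have : s = 1 := by omega
      rw [this, one_pow]
      exact Nat.one_le_iff_ne_zero.2 (by positivity)
    · have hmin := Nat.find_min hex (m := s - 1) (by omega)
      have hlt : (s - 1) ^ (r - 1) < A := by
        by_contra hcon
        push Not at hcon
        exact hmin ⟨by omega, hcon⟩
      calc s ^ (r - 1) ≤ (2 * (s - 1)) ^ (r - 1) := Nat.pow_le_pow_left (by omega) _
        _ = 2 ^ (r - 1) * (s - 1) ^ (r - 1) := by rw [mul_pow]
        _ ≤ 2 ^ (r - 1) * A := Nat.mul_le_mul_left _ hlt.le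
  -- the clique size
  have hrm : r ≤ s + r := by omega
  have hmn : s + r ≤ n := by
    have h1 : s ≤ s ^ (r - 1) := Nat.le_self_pow (by omega) s
    have h2 : 2 ^ (r - 1) * A = D * (k + (1 + Le)) := by
      rw [hA, hD]; ring
    have h3 := lin_le_two_pow D (1 + Le) r T hT (by omega) k hkT
    calc s + r ≤ D * (k + (1 + Le)) + r := by
          have := h1.trans (hsup.trans h2.le)
          omega
      _ ≤ 2 ^ k := h3
      _ ≤ n := h2k
  have hchoose : (k + 1) * (s + r) + Le ≤ (s + r).choose r :=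
    choose_ge_lin hr hs1 hsA
  have hcount : (n.choose (s + r) : ℝ) < ε * 2 ^ ((s + r).choose r) :=
    count_lt hε0 hnlt hchoose hLe
  have hw := clique_width hrm hmn hε0 hε1 hcount
  refine ⟨cliqueProp n r (s + r), cliqueProp_symmetric n r _, cliqueProp_increasing n r _,
    cliqueProp_nontrivial hrm hmn, ?_⟩
  refine le_trans ?_ hw
  -- numeric comparison
  obtain ⟨hk2, h12⟩ := natLog_le hn2
  have hlogpos : 0 < Real.log n := by linarith
  have hchoose_le : ((s + r).choose r : ℝ) ≤ ((r : ℝ) + 1) ^ r * (s : ℝ) ^ r := by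
    have h1 : (s + r).choose r ≤ (s + r) ^ r := Nat.choose_le_pow _ _
    have h2 : s + r ≤ (r + 1) * s := by nlinarith
    have h3 : (s + r) ^ r ≤ ((r + 1) * s) ^ r := Nat.pow_le_pow_left h2 r
    have h4 : (s + r).choose r ≤ ((r + 1) * s) ^ r := h1.trans h3
    have h5 : (((s + r).choose r : ℕ) : ℝ) ≤ (((r + 1) * s) ^ r : ℕ) := by exact_mod_cast h4
    rw [← mul_pow]
    push_cast at h5
    exact h5
  have hs_pow : (s : ℝ) ^ (r - 1) ≤ C1 * Real.log n := by
    have h1 : ((s ^ (r - 1) : ℕ) : ℝ) ≤ ((2 ^ (r - 1) * A : ℕ) : ℝ) := by exact_mod_cast hsup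
    have h2 : ((2 ^ (r - 1) * A : ℕ) : ℝ) = (D : ℝ) * ((k : ℝ) + 1 + Le) := by
      rw [hA, hD]; push_cast; ring
    have h3 : (k : ℝ) + 1 + Le ≤ (4 + 2 * (Le : ℝ)) * Real.log n := by
      have hLe0 : (0 : ℝ) ≤ Le := Nat.cast_nonneg _
      nlinarith
    have h4 : (D : ℝ) * ((k : ℝ) + 1 + Le) ≤ (D : ℝ) * ((4 + 2 * (Le : ℝ)) * Real.log n) :=
      mul_le_mul_of_nonneg_left h3 (Nat.cast_nonneg _)
    rw [h2] at h1
    push_cast at h1
    rw [hC1]
    calc (s : ℝ) ^ (r - 1) ≤ (D : ℝ) * ((k : ℝ) + 1 + Le) := h1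
      _ ≤ _ := h4
      _ = _ := by ring
  have hs_r : (s : ℝ) ^ r ≤ C1 ^ ρ * Real.log n ^ ρ := by
    rw [pow_eq_rpow_pow (s : ℝ) (Nat.cast_nonneg _) hr, ← Real.mul_rpow hC1pos.le hlogpos.le]
    exact Real.rpow_le_rpow (by positivity) hs_pow hρpos.le
  have hMpos : (0 : ℝ) < ((s + r).choose r : ℝ) := by
    exact_mod_cast Nat.choose_pos hrm
  have hexp : -(r : ℝ) / ((r : ℝ) - 1) = -ρ := by rw [hρ, neg_div]
  rw [hexp, Real.rpow_neg hlogpos.le]
  have hlogρ : 0 < Real.log n ^ ρ := Real.rpow_pos_of_pos hlogpos _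
  have hC1ρ : 0 < C1 ^ ρ := Real.rpow_pos_of_pos hC1pos _
  have hbound : 2 * ((s + r).choose r : ℝ) ≤
      2 * (((r : ℝ) + 1) ^ r * C1 ^ ρ) * Real.log n ^ ρ := by
    have : ((r : ℝ) + 1) ^ r * (s : ℝ) ^ r ≤ ((r : ℝ) + 1) ^ r * (C1 ^ ρ * Real.log n ^ ρ) :=
      mul_le_mul_of_nonneg_left hs_r (by positivity)
    nlinarith
  rw [div_mul_eq_mul_div, ← div_eq_mul_inv, div_div]
  exact div_le_div_of_nonneg_left hlampos.le (by positivity) (le_of_le_of_eq hbound (by ring))

/-- **Wide thresholds for hypergraph properties.**  For every uniformity `r ≥ 2` and every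
`0 < ε < 1/2` there are `c > 0` and `n₀` such that for all `n ≥ n₀` there is a nontrivial
increasing `r`-uniform hypergraph property `P` on `n` vertices (a family of sets of `r`-subsets of
`Fin n`, invariant under all permutations of the vertices) with
`w_ε(P) = p_{1-ε}(P) - p_ε(P) ≥ c (log n)^(-r/(r-1))`. -/
theorem result (r : ℕ) (hr : 2 ≤ r) (ε : ℝ) (hε0 : 0 < ε) (hε1 : ε < 1 / 2) :
    ∃ c : ℝ, 0 < c ∧ ∃ n0 : ℕ, ∀ n : ℕ, n0 ≤ n → ∃ P : Set (Finset (Edge n r)),
      IsSymmetric P ∧ IsIncreasing P ∧ IsNontrivial P ∧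
      c * Real.log n ^ (-(r : ℝ) / ((r : ℝ) - 1)) ≤ width ε P :=
  asymptotic r hr ε hε0 hε1

end Vale.Agent.Results.P063.HypergraphCliqueWidth
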